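import Crest.Agent.Lib.Bc.Q4II.Main
import Crest.Agent.Lib.Bc.Cert4Glue
/-!
# Row 163: `Q4II` against `Q4Glue.G4` (helper88)

`Q4Glue.mkCert4` asks for `β' G4 + β G4' + κ (f²f' + f f'²) ≤ f + f' - Esig 4 f`, `β ≥ 0` and `β` bounded on the
simplex.  Here: `β = betaF`, `κ = 1/100`.
-/
set_option autoImplicit false
open scoped BigOperators
namespace Crest.Agent.Lib.Bc.Q4II
open Crest.Agent.Lib.Bc
open Crest.Agent.Lib.Bc.SymAvg Crest.Agent.Lib.Bc.Q4Inv

/-- `π` of `PairIII2` is `piF` on the simplex -/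
lemma piFn_eq {x : Fin 4 → ℝ} (hx : x ∈ Simp 4) : PIII.piFn x = piF x := by
  have h := e14_eq_one hx
  have e : x 3 = 1 - x 0 - x 1 - x 2 := by
    unfold e14 at h; linarith
  unfold PIII.piFn PIII.Cw PIII.dev piF e24 e34
  rw [Fin.sum_univ_four, e]
  ring

lemma G4_eq {x : Fin 4 → ℝ} (hx : x ∈ Simp 4) : Q4Glue.G4 x = gF x := by
  unfold Q4Glue.G4 gF
  rw [piFn_eq hx, aFn_eq_fF hx]

/-- **Q4II**, against `Q4Glue.G4` -/
theorem II_G4 (x : Fin 4 → ℝ) (hx : x ∈ Simp 4) (x' : Fin 4 → ℝ) (hx' : x' ∈ Simp 4) :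
    betaF x' * Q4Glue.G4 x + betaF x * Q4Glue.G4 x'
        + (1 / 100) * (aFn 4 x ^ 2 * aFn 4 x' + aFn 4 x * aFn 4 x' ^ 2)
      ≤ aFn 4 x + aFn 4 x' - Esig 4 (aFn 4) x x' := by
  rw [G4_eq hx, G4_eq hx']
  exact II hx hx'

private lemma bdd_coord (i : Fin 4) : SLaw.BddS (fun x : Fin 4 → ℝ => x i) := by
  refine ⟨1, fun x hx => ?_⟩
  rw [abs_of_nonneg (hx.1 i)]
  exact Simp.le_one hx i

private lemma bdd_e2 : SLaw.BddS e24 := by
  unfold e24
  have h := fun i j => SLaw.BddS.mul (bdd_coord i) (bdd_coord j)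
  exact ((((((h 0 1).add (h 0 2)).add (h 0 3)).add (h 1 2)).add (h 1 3)).add (h 2 3))

private lemma bdd_e3 : SLaw.BddS e34 := by
  unfold e34
  have h := fun i j k => SLaw.BddS.mul (SLaw.BddS.mul (bdd_coord i) (bdd_coord j)) (bdd_coord k)
  exact (((h 0 1 2).add (h 0 1 3)).add (h 0 2 3)).add (h 1 2 3)

private lemma bdd_e4 : SLaw.BddS e44 := by
  unfold e44
  exact SLaw.BddS.mul (SLaw.BddS.mul (SLaw.BddS.mul (bdd_coord 0) (bdd_coord 1)) (bdd_coord 2)) (bdd_coord 3)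

/-- the multiplier is bounded on the simplex -/
theorem bdd_betaF : SLaw.BddS betaF := by
  have hf : SLaw.BddS fF := by
    have := (SLaw.BddS.const (q := 4) 1).add (SLaw.BddS.const_mul (-(8 / 3)) bdd_e2)
    have e : fF = fun x => (1 : ℝ) + -(8 / 3) * e24 x := by funext x; unfold fF; ring
    rw [e]; exact this
  have hp : SLaw.BddS piF := by
    have := ((SLaw.BddS.const (q := 4) 1).add (SLaw.BddS.const_mul (-4) bdd_e2)).add (SLaw.BddS.const_mul 8 bdd_e3)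
    have e : piF = fun x => (1 : ℝ) + -4 * e24 x + 8 * e34 x := by funext x; unfold piF; ring
    rw [e]; exact this
  have hd : SLaw.BddS dF := by
    have := ((SLaw.BddS.const_mul 128 bdd_e4).add (SLaw.BddS.const_mul (-32) bdd_e3)).add
      (SLaw.BddS.const_mul (32 / 3) (SLaw.BddS.pow bdd_e2 2))
    have e : dF = fun x => 128 * e44 x + -32 * e34 x + (32 / 3) * e24 x ^ 2 := by funext x; unfold dF; ring
    rw [e]; exact this
  have := (((((SLaw.BddS.const_mul (1 / 10) hf).add (SLaw.BddS.const_mul (-1 / 40) hp)).add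
    (SLaw.BddS.const_mul (-3 / 25) (SLaw.BddS.pow hf 2))).add (SLaw.BddS.const_mul (1 / 60) hd)).add
    (SLaw.BddS.const_mul (2 / 25) (SLaw.BddS.mul hf hp)))
  have e : betaF = fun x => (1 / 10 : ℝ) * fF x + (-1 / 40 : ℝ) * piF x + (-3 / 25 : ℝ) * fF x ^ 2 + (1 / 60 : ℝ) * dF x
      + (2 / 25 : ℝ) * (fF x * piF x) := by
    funext x; unfold betaF; ring
  rw [e]; exact this

end Crest.Agent.Lib.Bc.Q4II
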