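import Crest.Agent.Lib.Bc.BernCert.Tree
/-! Data generated by gen.py (helper21) for Q4II (helper88): a bilinear form and its subdivision tree. -/
set_option autoImplicit false
namespace Crest.Agent.Lib.Bc.Q4II.Data

open Crest.Agent.Lib.Bc.BernCert

/-- the monomials -/
def monos : List Mon := [⟨7,0,0,0⟩,⟨3,0,0,1⟩,⟨4,0,1,0⟩,⟨0,0,1,1⟩,⟨1,0,2,0⟩,⟨5,1,0,0⟩,⟨1,1,0,1⟩,⟨2,1,1,0⟩,⟨3,2,0,0⟩,⟨0,2,1,0⟩,⟨1,3,0,0⟩]

/-- positive part of the coefficient matrix -/
def cp : List (List ℕ) := [[1323,0,0,0,0,0,0,56448,14592,0,0],[0,0,32624640,0,544358400,5222400,403046400,0,0,0,95846400],[0,32624640,0,378470400,0,1094592,0,7074816,0,2457600,7372800],[0,0,378470400,0,3381657600,0,7942963200,0,0,0,294912000],[0,544358400,0,3381657600,0,0,0,18432000,36864000,255590400,0],[0,5222400,1094592,0,0,0,0,0,1198208,17203200,0],[0,403046400,0,7942963200,0,0,0,737280000,108134400,609484800,0],[56448,0,7074816,0,18432000,0,737280000,0,49004544,162201600,0],[14592,0,0,0,36864000,1198208,108134400,49004544,0,0,19660800],[0,0,2457600,0,255590400,17203200,609484800,162201600,0,0,221184000],[0,95846400,7372800,294912000,0,0,0,0,19660800,221184000,0]]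

/-- negative part of the coefficient matrix -/
def cm : List (List ℕ) := [[0,40320,37548,0,0,5850,0,0,0,0,0],[40320,40550400,0,1926758400,0,0,0,166871040,39444480,186777600,0],[37548,0,423936,0,24576000,0,159744000,0,5777664,0,0],[0,1926758400,0,16829644800,0,17203200,0,1710489600,0,668467200,0],[0,0,24576000,0,251904000,4915200,2015232000,0,0,0,66355200],[5850,0,0,17203200,4915200,144768,9830400,7721472,0,0,2457600],[0,0,159744000,0,2015232000,9830400,2202009600,0,0,0,314572800],[0,166871040,0,1710489600,0,7721472,0,73629696,0,0,81100800],[0,39444480,5777664,0,0,0,0,0,9646080,122880000,0],[0,186777600,0,668467200,0,0,0,0,122880000,658636800,0],[0,0,0,0,66355200,2457600,314572800,81100800,0,0,39321600]]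

/-- the form -/
def cfg : Cfg := ⟨7, 110, 36, monos, cp, cm⟩

/-- the tree -/
def T : PT := (PT.X 0 3 (PT.Y 0 3 (PT.X 0 2 (PT.Y 0 2 (PT.X 0 1 (PT.Y 0 1 (PT.X 0 3 (PT.Y 0 3 (PT.X 0 2 (PT.Y 0 2 (PT.X 0 3 (PT.Y 0 3 PT.L PT.L) PT.L) PT.L) PT.L) PT.L) (PT.Y 0 3 PT.L PT.L)) (PT.X 0 3 PT.L PT.L)) (PT.Y 0 1 (PT.Y 0 3 PT.L PT.L) PT.L)) (PT.X 0 1 (PT.X 0 3 PT.L PT.L) PT.L)) (PT.Y 0 2 (PT.Y 0 1 (PT.Y 0 3 PT.L PT.L) PT.L) PT.L)) (PT.X 0 2 (PT.X 0 1 (PT.X 0 3 PT.L PT.L) PT.L) PT.L)) (PT.Y 0 3 (PT.Y 0 2 (PT.Y 0 1 (PT.Y 0 3 PT.L PT.L) PT.L) PT.L) PT.L))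

set_option maxRecDepth 1000000 in
theorem chk : check cfg T C4 C4 = true := by decide +kernel

end Crest.Agent.Lib.Bc.Q4II.Data
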