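import Crest.Agent.Lib.Bc.Q4II.Data
import Crest.Agent.Lib.Bc.Q4II.BetaData
import Crest.Agent.Lib.Bc.Q4Inv
/-!
# Row 163: `Q4II` (helper88)

`β' g + β g' + (1/100)(f² f' + f f'²) ≤ f + f' - Esig 4 f` on `Simp 4 × Simp 4`, `g = gF`, `f = aFn 4`.
Method: `Z f(y) = Z - ν/(3Z)`, `ν = 128 e₂(p)`, and `1/Z ≥ m(w) = 1 - w + w² - w³ + (3/4)w⁴ - (1/4)w⁵`, `w = Z - 1`;
the relabelling average of the polynomial is diagonal in the monomial symmetric functions (`SymAvg`);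
the bilinear form in the elementary symmetric functions is nonnegative by `BernCert` (`Data.chk`).
-/
set_option autoImplicit false
set_option linter.unusedSimpArgs false
open scoped BigOperators
namespace Crest.Agent.Lib.Bc.Q4II
open Crest.Agent.Lib.Bc
open Crest.Agent.Lib.Bc.SymAvg Crest.Agent.Lib.Bc.Q4Inv
open Crest.Agent.Lib.Bc.PolyFast (E den den_add' den_sub' den_mul' den_neg' den_pow' den_var' den_num' eq_of_check')

/-- the multiplier of `Q4II` -/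
noncomputable def betaF (x : Fin 4 → ℝ) : ℝ :=
  (1 / 10 : ℝ) * fF x + (-1 / 40 : ℝ) * piF x + (-3 / 25 : ℝ) * fF x ^ 2 + (1 / 60 : ℝ) * dF x + (2 / 25 : ℝ) * fF x * piF x

/-- `w = 4 e₁ - 1`, as an expression -/
noncomputable def wE : E := .num 4 * e1E4 - .num 1
/-- `4 m(w)` -/
noncomputable def MwE : E := .num 4 - .num 4 * wE + .num 4 * wE ^ 2 - .num 4 * wE ^ 3 + .num 3 * wE ^ 4 - wE ^ 5
/-- `3 (Z - (ν/3) m(w))` -/
noncomputable def eP : E := .num 12 * e1E4 - .num 32 * e2E4 * MwE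

/-- the table of `eP` in symmetrised monomials -/
noncomputable def tabL : List (ℤ × ℕ × ℕ × ℕ × ℕ) :=
  [(393216, 6, 1, 0, 0),
  (1966080, 5, 2, 0, 0),
  (4325376, 5, 1, 1, 0),
  (-786432, 5, 1, 0, 0),
  (3932160, 4, 3, 0, 0),
  (27525120, 4, 2, 1, 0),
  (-3145728, 4, 2, 0, 0),
  (9830400, 4, 1, 1, 1),
  (-7077888, 4, 1, 1, 0),
  (638976, 4, 1, 0, 0),
  (19660800, 3, 3, 1, 0),
  (-2359296, 3, 3, 0, 0),
  (31457280, 3, 2, 2, 0),
  (66846720, 3, 2, 1, 1),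
  (-34603008, 3, 2, 1, 0),
  (1916928, 3, 2, 0, 0),
  (-12582912, 3, 1, 1, 1),
  (4472832, 3, 1, 1, 0),
  (-270336, 3, 1, 0, 0),
  (35389440, 2, 2, 2, 1),
  (-9437184, 2, 2, 2, 0),
  (-30670848, 2, 2, 1, 1),
  (7667712, 2, 2, 1, 0),
  (-270336, 2, 2, 0, 0),
  (5750784, 2, 1, 1, 1),
  (-1351680, 2, 1, 1, 0),
  (62976, 2, 1, 0, 0),
  (-270336, 1, 1, 1, 1),
  (62976, 1, 1, 1, 0),
  (-3840, 1, 1, 0, 0),
  (48, 1, 0, 0, 0)]

set_option maxRecDepth 1000000 in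
theorem tab_ok : Crest.Agent.Lib.Bc.PolyFast.check 4 (.num 24 * eP) (linE4 tabL) = true := by decide +kernel

lemma den_eP (p : Fin 4 → ℝ) : den (vec4 p) eP = 12 * e14 p - 32 * e24 p *
    (4 - 4 * (4 * e14 p - 1) + 4 * (4 * e14 p - 1) ^ 2 - 4 * (4 * e14 p - 1) ^ 3 + 3 * (4 * e14 p - 1) ^ 4
      - (4 * e14 p - 1) ^ 5) := by
  simp [eP, MwE, wE, den_add', den_sub', den_mul', den_pow', den_num', den_e1E4, den_e2E4]

/-- the pointwise majorant of `Z f(y)` -/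
theorem kern_le (p : Fin 4 → ℝ) (hp : ∀ i, 0 ≤ p i) : kernP 4 (aFn 4) p ≤ den (vec4 p) eP / 3 := by
  rw [den_eP]
  have hsum : ∑ i, p i = e14 p := by
    simp [Fin.sum_univ_succ, e14]; ring
  have he2 : 0 ≤ e24 p := by
    unfold e24
    have h0 := hp 0; have h1 := hp 1; have h2 := hp 2; have h3 := hp 3
    positivity
  by_cases h : ∑ j, p j = 0
  · rw [kernP_of_zero h]
    have h' : e14 p = 0 := by rw [← hsum]; exact h
    have h0 := hp 0; have h1 := hp 1; have h2 := hp 2; have h3 := hp 3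
    have e : e14 p = p 0 + p 1 + p 2 + p 3 := rfl
    have p0 : p 0 = 0 := by linarith
    have p1 : p 1 = 0 := by linarith
    have p2 : p 2 = 0 := by linarith
    have p3 : p 3 = 0 := by linarith
    have e2z : e24 p = 0 := by simp [e24, p0, p1, p2, p3]
    rw [h', e2z]
    norm_num
  · rw [kernP_of_pos h, hsum]
    have hs : 0 < e14 p := by
      have : 0 ≤ e14 p := by
        rw [← hsum]; exact Finset.sum_nonneg fun i _ => hp i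
      exact lt_of_le_of_ne this (fun e => h (by rw [hsum]; exact e.symm))
    have hsq : ∑ i, (p i / e14 p) ^ 2 = (e14 p ^ 2 - 2 * e24 p) / e14 p ^ 2 := by
      have : ∑ i, (p i / e14 p) ^ 2
          = (p 0 / e14 p) ^ 2 + (p 1 / e14 p) ^ 2 + (p 2 / e14 p) ^ 2 + (p 3 / e14 p) ^ 2 := by
        simp [Fin.sum_univ_succ]; ring
      rw [this]
      field_simp
      unfold e14 e24
      ring
    have key : 1 / e14 p - (4 - 4 * (4 * e14 p - 1) + 4 * (4 * e14 p - 1) ^ 2 - 4 * (4 * e14 p - 1) ^ 3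
        + 3 * (4 * e14 p - 1) ^ 4 - (4 * e14 p - 1) ^ 5)
        = (4 * e14 p - 1) ^ 4 * (4 * e14 p - 2) ^ 2 / (4 * e14 p) := by
      field_simp
      ring
    have key2 : 0 ≤ (4 * e14 p - 1) ^ 4 * (4 * e14 p - 2) ^ 2 / (4 * e14 p) := by positivity
    have hval : ((4 : ℕ) : ℝ) * e14 p * aFn 4 (fun i => p i / e14 p)
        = 4 * e14 p - (32 / 3) * e24 p * (1 / e14 p) := by
      unfold aFn
      rw [hsq]
      push_cast
      field_simp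
      ring
    rw [hval]
    have : 0 ≤ e24 p * (1 / e14 p - (4 - 4 * (4 * e14 p - 1) + 4 * (4 * e14 p - 1) ^ 2
        - 4 * (4 * e14 p - 1) ^ 3 + 3 * (4 * e14 p - 1) ^ 4 - (4 * e14 p - 1) ^ 5)) := by
      rw [key]
      exact mul_nonneg he2 key2
    nlinarith [this]

theorem Esig_le (x x' : Fin 4 → ℝ) (hx : ∀ i, 0 ≤ x i) (hx' : ∀ i, 0 ≤ x' i) :
    Esig 4 (aFn 4) x x' ≤ bil4 tabL x x' / 1728 := by
  have h := Esig_le_of_le (q := 4) (f := aFn 4) (F := fun p => den (vec4 p) eP / 3) kern_le hx hx'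
  have hd := diag4 eP 24 tabL tab_ok x x'
  refine h.trans (le_of_eq ?_)
  rw [← hd, ← Finset.sum_div]
  have : ((Nat.factorial 4 : ℕ) : ℝ) = 24 := by norm_num [Nat.factorial]
  rw [this]
  push_cast
  ring

theorem bil_expand (x x' : Fin 4 → ℝ) : bil4 tabL x x' =
    ((393216 : ℤ) : ℝ) * (symM ![6, 1, 0, 0] x * symM ![6, 1, 0, 0] x') + (
    ((1966080 : ℤ) : ℝ) * (symM ![5, 2, 0, 0] x * symM ![5, 2, 0, 0] x') + (
    ((4325376 : ℤ) : ℝ) * (symM ![5, 1, 1, 0] x * symM ![5, 1, 1, 0] x') + (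
    ((-786432 : ℤ) : ℝ) * (symM ![5, 1, 0, 0] x * symM ![5, 1, 0, 0] x') + (
    ((3932160 : ℤ) : ℝ) * (symM ![4, 3, 0, 0] x * symM ![4, 3, 0, 0] x') + (
    ((27525120 : ℤ) : ℝ) * (symM ![4, 2, 1, 0] x * symM ![4, 2, 1, 0] x') + (
    ((-3145728 : ℤ) : ℝ) * (symM ![4, 2, 0, 0] x * symM ![4, 2, 0, 0] x') + (
    ((9830400 : ℤ) : ℝ) * (symM ![4, 1, 1, 1] x * symM ![4, 1, 1, 1] x') + (
    ((-7077888 : ℤ) : ℝ) * (symM ![4, 1, 1, 0] x * symM ![4, 1, 1, 0] x') + (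
    ((638976 : ℤ) : ℝ) * (symM ![4, 1, 0, 0] x * symM ![4, 1, 0, 0] x') + (
    ((19660800 : ℤ) : ℝ) * (symM ![3, 3, 1, 0] x * symM ![3, 3, 1, 0] x') + (
    ((-2359296 : ℤ) : ℝ) * (symM ![3, 3, 0, 0] x * symM ![3, 3, 0, 0] x') + (
    ((31457280 : ℤ) : ℝ) * (symM ![3, 2, 2, 0] x * symM ![3, 2, 2, 0] x') + (
    ((66846720 : ℤ) : ℝ) * (symM ![3, 2, 1, 1] x * symM ![3, 2, 1, 1] x') + (
    ((-34603008 : ℤ) : ℝ) * (symM ![3, 2, 1, 0] x * symM ![3, 2, 1, 0] x') + (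
    ((1916928 : ℤ) : ℝ) * (symM ![3, 2, 0, 0] x * symM ![3, 2, 0, 0] x') + (
    ((-12582912 : ℤ) : ℝ) * (symM ![3, 1, 1, 1] x * symM ![3, 1, 1, 1] x') + (
    ((4472832 : ℤ) : ℝ) * (symM ![3, 1, 1, 0] x * symM ![3, 1, 1, 0] x') + (
    ((-270336 : ℤ) : ℝ) * (symM ![3, 1, 0, 0] x * symM ![3, 1, 0, 0] x') + (
    ((35389440 : ℤ) : ℝ) * (symM ![2, 2, 2, 1] x * symM ![2, 2, 2, 1] x') + (
    ((-9437184 : ℤ) : ℝ) * (symM ![2, 2, 2, 0] x * symM ![2, 2, 2, 0] x') + (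
    ((-30670848 : ℤ) : ℝ) * (symM ![2, 2, 1, 1] x * symM ![2, 2, 1, 1] x') + (
    ((7667712 : ℤ) : ℝ) * (symM ![2, 2, 1, 0] x * symM ![2, 2, 1, 0] x') + (
    ((-270336 : ℤ) : ℝ) * (symM ![2, 2, 0, 0] x * symM ![2, 2, 0, 0] x') + (
    ((5750784 : ℤ) : ℝ) * (symM ![2, 1, 1, 1] x * symM ![2, 1, 1, 1] x') + (
    ((-1351680 : ℤ) : ℝ) * (symM ![2, 1, 1, 0] x * symM ![2, 1, 1, 0] x') + (
    ((62976 : ℤ) : ℝ) * (symM ![2, 1, 0, 0] x * symM ![2, 1, 0, 0] x') + (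
    ((-270336 : ℤ) : ℝ) * (symM ![1, 1, 1, 1] x * symM ![1, 1, 1, 1] x') + (
    ((62976 : ℤ) : ℝ) * (symM ![1, 1, 1, 0] x * symM ![1, 1, 1, 0] x') + (
    ((-3840 : ℤ) : ℝ) * (symM ![1, 1, 0, 0] x * symM ![1, 1, 0, 0] x') + (
    ((48 : ℤ) : ℝ) * (symM ![1, 0, 0, 0] x * symM ![1, 0, 0, 0] x') + (
    0))))))))))))))))))))))))))))))) := rfl

/-- the point -/
def ptx (x : Fin 4 → ℝ) : BernCert.Pt ℝ := ⟨x 0, x 1, x 2, x 3⟩

theorem identity (x x' : Fin 4 → ℝ) (h : e14 x = 1) (h' : e14 x' = 1) :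
    fF x + fF x' - bil4 tabL x x' / 1728 - betaF x' * gF x - betaF x * gF x'
        - (1 / 100) * (fF x ^ 2 * fF x' + fF x * fF x' ^ 2)
      = (1 / 2700 : ℝ) * BernCert.formR Data.cfg (BernCert.vals Data.cfg (ptx x)) (BernCert.vals Data.cfg (ptx x')) := by
  have e1 : (ptx x).e1 = e14 x := rfl
  have e2 : (ptx x).e2 = e24 x := rfl
  have e3 : (ptx x).e3 = e34 x := rfl
  have e4 : (ptx x).e4 = e44 x := rfl
  have e1' : (ptx x').e1 = e14 x' := rfl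
  have e2' : (ptx x').e2 = e24 x' := rfl
  have e3' : (ptx x').e3 = e34 x' := rfl
  have e4' : (ptx x').e4 = e44 x' := rfl
  rw [bil_expand]
  simp only [symM4_6_1_0_0, symM4_5_2_0_0, symM4_5_1_1_0, symM4_5_1_0_0, symM4_4_3_0_0, symM4_4_2_1_0, symM4_4_2_0_0, symM4_4_1_1_1, symM4_4_1_1_0, symM4_4_1_0_0, symM4_3_3_1_0, symM4_3_3_0_0, symM4_3_2_2_0, symM4_3_2_1_1, symM4_3_2_1_0, symM4_3_2_0_0, symM4_3_1_1_1, symM4_3_1_1_0, symM4_3_1_0_0, symM4_2_2_2_1, symM4_2_2_2_0, symM4_2_2_1_1, symM4_2_2_1_0, symM4_2_2_0_0, symM4_2_1_1_1, symM4_2_1_1_0, symM4_2_1_0_0, symM4_1_1_1_1, symM4_1_1_1_0, symM4_1_1_0_0, symM4_1_0_0_0]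
  simp only [BernCert.formR, BernCert.vals, Data.cfg, Data.monos, Data.cp, Data.cm, List.map_cons, List.map_nil,
    BernCert.pr, BernCert.Ee, e1, e2, e3, e4, e1', e2', e3', e4', h, h']
  simp only [fF, piF, dF, gF, betaF, h, h']
  push_cast
  ring

/-- **Q4II** -/
theorem II {x x' : Fin 4 → ℝ} (hx : x ∈ Simp 4) (hx' : x' ∈ Simp 4) :
    betaF x' * gF x + betaF x * gF x' + (1 / 100) * (aFn 4 x ^ 2 * aFn 4 x' + aFn 4 x * aFn 4 x' ^ 2)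
      ≤ aFn 4 x + aFn 4 x' - Esig 4 (aFn 4) x x' := by
  have h0 := BernCert.cert_q4 Data.cfg Data.T Data.chk (x 0) (x 1) (x 2) (x 3) (x' 0) (x' 1) (x' 2) (x' 3)
    (hx.1 0) (hx.1 1) (hx.1 2) (hx.1 3) (hx'.1 0) (hx'.1 1) (hx'.1 2) (hx'.1 3)
  have hid := identity x x' (e14_eq_one hx) (e14_eq_one hx')
  have hE := Esig_le x x' hx.1 hx'.1
  rw [aFn_eq_fF hx, aFn_eq_fF hx'] at *
  have : 0 ≤ (1 / 2700 : ℝ) * BernCert.formR Data.cfg (BernCert.vals Data.cfg (ptx x)) (BernCert.vals Data.cfg (ptx x')) :=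
    mul_nonneg (by norm_num) h0
  rw [← hid] at this
  linarith

theorem betaF_eq (x : Fin 4 → ℝ) (h : e14 x = 1) :
    betaF x = (1 / 1800 : ℝ) * BernCert.formR BetaData.cfg (BernCert.vals BetaData.cfg (ptx x))
      (BernCert.vals BetaData.cfg (⟨1, 0, 0, 0⟩ : BernCert.Pt ℝ)) := by
  have e1 : (ptx x).e1 = e14 x := rfl
  have e2 : (ptx x).e2 = e24 x := rfl
  have e3 : (ptx x).e3 = e34 x := rfl
  have e4 : (ptx x).e4 = e44 x := rfl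
  have v1 : (⟨1, 0, 0, 0⟩ : BernCert.Pt ℝ).e1 = 1 := by simp [BernCert.Pt.e1]
  have v2 : (⟨1, 0, 0, 0⟩ : BernCert.Pt ℝ).e2 = 0 := by simp [BernCert.Pt.e2]
  have v3 : (⟨1, 0, 0, 0⟩ : BernCert.Pt ℝ).e3 = 0 := by simp [BernCert.Pt.e3]
  have v4 : (⟨1, 0, 0, 0⟩ : BernCert.Pt ℝ).e4 = 0 := by simp [BernCert.Pt.e4]
  simp only [BernCert.formR, BernCert.vals, BetaData.cfg, BetaData.monos, BetaData.cp, BetaData.cm, List.map_cons,
    List.map_nil, BernCert.pr, BernCert.Ee, e1, e2, e3, e4, h, v1, v2, v3, v4]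
  simp only [betaF, fF, piF, dF]
  push_cast
  ring

/-- the multiplier is nonnegative -/
theorem betaF_nonneg {x : Fin 4 → ℝ} (hx : x ∈ Simp 4) : 0 ≤ betaF x := by
  have h0 := BernCert.cert_q4 BetaData.cfg BetaData.T BetaData.chk (x 0) (x 1) (x 2) (x 3) 1 0 0 0
    (hx.1 0) (hx.1 1) (hx.1 2) (hx.1 3) (by norm_num) le_rfl le_rfl le_rfl
  rw [betaF_eq x (e14_eq_one hx)]
  exact mul_nonneg (by norm_num) h0

end Crest.Agent.Lib.Bc.Q4II
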